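import Mathlib

/-!
The arithmetic of the counting bound.
-/

namespace Vale.Agent.P183.R2.H668

/-- A prime of the right size. -/
lemma exists_prime_size (n : ℕ) (hn : 34 ≤ n) :
    ∃ p : ℕ, p.Prime ∧ 8 * p ^ 2 + 2 ≤ n ∧ n < 34 * p ^ 2 := by
  set m := Nat.sqrt (n / 34) with hm
  have h1 : m ^ 2 ≤ n / 34 := Nat.sqrt_le' _
  have h2 : n / 34 < (m + 1) ^ 2 := Nat.lt_succ_sqrt' _
  have h3 : 1 ≤ n / 34 := by omega
  have hm0 : m ≠ 0 := by
    intro h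
    rw [h] at h2
    omega
  obtain ⟨p, hp, h4, h5⟩ := Nat.exists_prime_lt_and_le_two_mul m hm0
  have h6 : 34 * (n / 34) ≤ n := Nat.mul_div_le n 34
  have h7 : n < 34 * (n / 34 + 1) := by omega
  refine ⟨p, hp, ?_, ?_⟩
  · have h8 : p ^ 2 ≤ (2 * m) ^ 2 := Nat.pow_le_pow_left h5 2
    have h9 : 1 ≤ m := by omega
    nlinarith
  · have h8 : (m + 1) ^ 2 ≤ p ^ 2 := Nat.pow_le_pow_left h4 2
    omega

/-- From a bound for labelled objects to a bound for isomorphism types. -/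
lemma exists_threshold : ∃ n₀ : ℕ, ∀ n : ℕ, n₀ ≤ n → ∀ p : ℕ, n < 34 * p ^ 2 → ∀ N : ℕ,
    2 ^ (p ^ 3) ≤ N * n.factorial → (2 : ℝ) ^ ((n : ℝ) ^ (3 / 2 : ℝ) / 400) ≤ N := by
  have hl2 : 0 < Real.log 2 := Real.log_pos (by norm_num)
  have h0 := (isLittleO_log_rpow_atTop (r := 1 / 2) (by norm_num)).bound
    (show 0 < Real.log 2 / 400 by positivity)
  obtain ⟨n₁, hn₁⟩ := Filter.eventually_atTop.1
    ((tendsto_natCast_atTop_atTop (R := ℝ)).eventually h0)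
  refine ⟨max n₁ 1, fun n hn p hp N hN => ?_⟩
  have hn1 : 1 ≤ n := (le_max_right _ _).trans hn
  have hlog := hn₁ n ((le_max_left _ _).trans hn)
  set x : ℝ := (n : ℝ) ^ (1 / 2 : ℝ) with hx
  have hx0 : 0 ≤ x := by positivity
  have hx2 : x ^ 2 = n := by
    rw [hx, ← Real.rpow_natCast, ← Real.rpow_mul (by positivity)]
    norm_num
  have hx3 : (n : ℝ) ^ (3 / 2 : ℝ) = x ^ 3 := by
    rw [hx, ← Real.rpow_natCast, ← Real.rpow_mul (by positivity)]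
    norm_num
  have hn1' : (1 : ℝ) ≤ n := by exact_mod_cast hn1
  have hln : 0 ≤ Real.log n := Real.log_nonneg hn1'
  rw [Real.norm_of_nonneg hln, Real.norm_of_nonneg hx0] at hlog
  -- the factorial is small
  have hfac : (n.factorial : ℝ) ≤ (2 : ℝ) ^ (x ^ 3 / 400) := by
    have h1 : (n.factorial : ℝ) ≤ (n : ℝ) ^ n := by exact_mod_cast Nat.factorial_le_pow n
    refine h1.trans ?_
    rw [← Real.rpow_natCast, Real.rpow_def_of_pos (by linarith), Real.rpow_def_of_pos (by norm_num)]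
    apply Real.exp_le_exp.2
    calc Real.log n * n ≤ (Real.log 2 / 400 * x) * n := by gcongr
      _ = (Real.log 2 / 400 * x) * x ^ 2 := by rw [hx2]
      _ = Real.log 2 * (x ^ 3 / 400) := by ring
  -- the prime is large
  have hp' : x ^ 2 < 34 * (p : ℝ) ^ 2 := by rw [hx2]; exact_mod_cast hp
  have hxp : x ≤ 5.84 * p := by
    apply le_of_sq_le_sq _ (by positivity)
    nlinarith [sq_nonneg (p : ℝ)]
  have hxp3 : x ^ 3 ≤ 200 * (p : ℝ) ^ 3 := by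
    have h1 : x ^ 3 ≤ (5.84 * p) ^ 3 := pow_le_pow_left₀ hx0 hxp 3
    have h2 : (0 : ℝ) ≤ (p : ℝ) ^ 3 := by positivity
    nlinarith
  have hN' : (2 : ℝ) ^ (p ^ 3) ≤ N * n.factorial := by exact_mod_cast hN
  rw [hx3]
  have hpos : (0 : ℝ) < (2 : ℝ) ^ (x ^ 3 / 400) := by positivity
  have h3 : (2 : ℝ) ^ (x ^ 3 / 400) * (2 : ℝ) ^ (x ^ 3 / 400) ≤ N * (2 : ℝ) ^ (x ^ 3 / 400) := by
    calc (2 : ℝ) ^ (x ^ 3 / 400) * (2 : ℝ) ^ (x ^ 3 / 400) = (2 : ℝ) ^ (x ^ 3 / 200) := by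
          rw [← Real.rpow_add (by norm_num)]
          congr 1
          ring
      _ ≤ (2 : ℝ) ^ ((p : ℝ) ^ 3) := by
          apply Real.rpow_le_rpow_of_exponent_le (by norm_num)
          linarith
      _ = (2 : ℝ) ^ (p ^ 3) := by
          rw [← Real.rpow_natCast (2 : ℝ) (p ^ 3), Nat.cast_pow]
      _ ≤ N * n.factorial := hN'
      _ ≤ N * (2 : ℝ) ^ (x ^ 3 / 400) := by gcongr
  exact le_of_mul_le_mul_right h3 hpos

end Vale.Agent.P183.R2.H668
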