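import Mathlib
import Vale.Agent.P183.Bdl.B2

/-!
Extensions of a lattice with two-element fibres, given by a set of covering pairs.
-/

namespace Vale.Agent.P183.R2.H668

open Vale.Agent.P183

/-- A set of covering pairs of special elements, no two of them composable. -/
structure CovSet (K : Type) [Lattice K] (Sp : Set K) where
  E : K → K → Prop
  cov : ∀ {x y}, E x y → x ⋖ y
  left : ∀ {x y}, E x y → x ∈ Sp
  right : ∀ {x y}, E x y → y ∈ Sp
  nocomp : ∀ {x y z}, E x y → E y z → False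

variable {K : Type} [Lattice K] {Sp : Set K}

/-- The carrier of the extension: every special element is doubled. -/
abbrev Car (Sp : Set K) : Type := {x : K × Bool // x.2 = true → x.1 ∈ Sp}

/-- The carrier, with the set of covering pairs remembered. -/
def Ext (_D : CovSet K Sp) : Type := Car Sp

namespace CovSet

variable (D : CovSet K Sp)

/-- Equality or a pair of the set. -/
def tr (k m : K) : Prop := k = m ∨ D.E k m

/-- The order of the extension. -/
def le (x y : Car Sp) : Prop :=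
  x.1.1 ≤ y.1.1 ∧ (x.1.2 = true → D.tr x.1.1 y.1.1 → y.1.2 = true)

variable {D}

lemma tr_refl (k : K) : D.tr k k := Or.inl rfl

lemma tr_trans {k l m : K} (h : D.tr k l) (h' : D.tr l m) : D.tr k m := by
  rcases h with rfl | h
  · exact h'
  · rcases h' with rfl | h'
    · exact Or.inr h
    · exact (D.nocomp h h').elim

lemma tr_mid {k l m : K} (h : D.tr k m) (h1 : k ≤ l) (h2 : l ≤ m) :
    D.tr k l ∧ D.tr l m := by
  rcases h with rfl | h
  · have : k = l := le_antisymm h1 h2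
    subst this
    exact ⟨tr_refl _, tr_refl _⟩
  · rcases (D.cov h).eq_or_eq h1 h2 with rfl | rfl
    · exact ⟨tr_refl _, Or.inr h⟩
    · exact ⟨Or.inr h, tr_refl _⟩

lemma tr_mem {k m : K} (h : D.tr k m) (hk : k ∈ Sp) : m ∈ Sp := by
  rcases h with rfl | h
  · exact hk
  · exact D.right h

variable (D)

open Classical in
/-- The join of the extension. -/
noncomputable def sup (x y : Car Sp) : Car Sp :=
  ⟨(x.1.1 ⊔ y.1.1, decide ((x.1.2 = true ∧ D.tr x.1.1 (x.1.1 ⊔ y.1.1)) ∨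
      (y.1.2 = true ∧ D.tr y.1.1 (x.1.1 ⊔ y.1.1)))), by
    intro h
    have h' := of_decide_eq_true h
    rcases h' with ⟨h1, h2⟩ | ⟨h1, h2⟩
    · exact tr_mem h2 (x.2 h1)
    · exact tr_mem h2 (y.2 h1)⟩

open Classical in
/-- The meet of the extension. -/
noncomputable def inf (x y : Car Sp) : Car Sp :=
  ⟨(x.1.1 ⊓ y.1.1, decide (x.1.1 ⊓ y.1.1 ∈ Sp ∧ (D.tr (x.1.1 ⊓ y.1.1) x.1.1 → x.1.2 = true) ∧
      (D.tr (x.1.1 ⊓ y.1.1) y.1.1 → y.1.2 = true))), by
    intro h
    exact (of_decide_eq_true h).1⟩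

open Classical in
lemma sup_true_iff (x y : Car Sp) : (D.sup x y).1.2 = true ↔
    (x.1.2 = true ∧ D.tr x.1.1 (x.1.1 ⊔ y.1.1)) ∨ (y.1.2 = true ∧ D.tr y.1.1 (x.1.1 ⊔ y.1.1)) :=
  decide_eq_true_iff

open Classical in
lemma inf_true_iff (x y : Car Sp) : (D.inf x y).1.2 = true ↔
    x.1.1 ⊓ y.1.1 ∈ Sp ∧ (D.tr (x.1.1 ⊓ y.1.1) x.1.1 → x.1.2 = true) ∧
      (D.tr (x.1.1 ⊓ y.1.1) y.1.1 → y.1.2 = true) :=
  decide_eq_true_iff

end CovSet

variable (D : CovSet K Sp)

noncomputable instance : Lattice (Ext D) where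
  le x y := D.le x y
  le_refl x := ⟨le_refl _, fun h _ => h⟩
  le_trans := by
    rintro x y z ⟨h1, h2⟩ ⟨h3, h4⟩
    refine ⟨h1.trans h3, fun h h' => ?_⟩
    obtain ⟨h5, h6⟩ := CovSet.tr_mid h' h1 h3
    exact h4 (h2 h h5) h6
  le_antisymm := by
    rintro ⟨⟨k, a⟩, hx⟩ ⟨⟨l, b⟩, hy⟩ ⟨h1, h2⟩ ⟨h3, h4⟩
    have hkl : k = l := le_antisymm h1 h3
    subst hkl
    have hab : a = b := by
      apply Bool.eq_iff_iff.2
      exact ⟨fun h => h2 h (CovSet.tr_refl _), fun h => h4 h (CovSet.tr_refl _)⟩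
    subst hab
    rfl
  sup x y := D.sup x y
  inf x y := D.inf x y
  le_sup_left := by
    intro x y
    exact ⟨le_sup_left, fun h h' => (D.sup_true_iff x y).2 (Or.inl ⟨h, h'⟩)⟩
  le_sup_right := by
    intro x y
    exact ⟨le_sup_right, fun h h' => (D.sup_true_iff x y).2 (Or.inr ⟨h, h'⟩)⟩
  sup_le := by
    rintro x y z ⟨h1, h2⟩ ⟨h3, h4⟩
    refine ⟨sup_le h1 h3, fun h h' => ?_⟩
    rcases (D.sup_true_iff x y).1 h with ⟨h5, h6⟩ | ⟨h5, h6⟩
    · exact h2 h5 (CovSet.tr_trans h6 h')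
    · exact h4 h5 (CovSet.tr_trans h6 h')
  inf_le_left := by
    intro x y
    exact ⟨inf_le_left, fun h h' => ((D.inf_true_iff x y).1 h).2.1 h'⟩
  inf_le_right := by
    intro x y
    exact ⟨inf_le_right, fun h h' => ((D.inf_true_iff x y).1 h).2.2 h'⟩
  le_inf := by
    rintro x y z ⟨h1, h2⟩ ⟨h3, h4⟩
    refine ⟨le_inf h1 h3, fun h h' => ?_⟩
    exact (D.inf_true_iff y z).2 ⟨CovSet.tr_mem h' (x.2 h), fun h5 => h2 h (CovSet.tr_trans h' h5),
      fun h5 => h4 h (CovSet.tr_trans h' h5)⟩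

lemma Ext.le_def (x y : Ext D) : x ≤ y ↔ D.le x y := Iff.rfl

/-- The projection onto the lattice. -/
def Ext.proj : LatticeHom (Ext D) K where
  toFun x := (show Car Sp from x).1.1
  map_sup' _ _ := rfl
  map_inf' _ _ := rfl

/-- **The extension of a representable lattice is representable.** -/
theorem Ext.representable (hK : Representable K) : Representable (Ext D) := by
  refine Representable.of_two_fiber (Ext.proj D) ?_ ?_ hK
  · intro k
    exact ⟨(⟨(k, false), fun h => by simp at h⟩ : Car Sp), rfl⟩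
  · rintro ⟨⟨k, a⟩, hx⟩ ⟨⟨l, b⟩, hy⟩ ⟨⟨m, c⟩, hz⟩ h1 h2
    have h1' : k = l := h1
    have h2' : l = m := h2
    subst h1' h2'
    have : a = b ∨ b = c ∨ a = c := by
      cases a <;> cases b <;> cases c <;> simp
    rcases this with rfl | rfl | rfl
    · exact Or.inl rfl
    · exact Or.inr (Or.inl rfl)
    · exact Or.inr (Or.inr rfl)

/-- The relation `E` can be read off from the order. -/
lemma CovSet.E_iff {x y : K} (hx : x ∈ Sp) (hxy : x ⋖ y) :
    D.E x y ↔ ¬ D.le ⟨(x, true), fun _ => hx⟩ ⟨(y, false), fun h => by simp at h⟩ := by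
  constructor
  · intro h h'
    have := h'.2 rfl (Or.inr h)
    simp at this
  · intro h
    by_contra hne
    apply h
    refine ⟨hxy.le, fun _ h' => ?_⟩
    rcases h' with h' | h'
    · exact (hxy.ne h').elim
    · exact (hne h').elim

end Vale.Agent.P183.R2.H668
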