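import Mathlib
import Vale.Agent.P183.Defs

/-!
Subrings of the ring of all functions from a finite set to the field with two elements, closed
under precomposition with given self maps of the set, against congruences of the unary algebra.
-/

namespace Vale.Agent.P183.R2.H668

open Vale.Agent.P183

/-- Equivalence relations on `X` compatible with all maps in `F`. -/
abbrev UCon (X : Type) (F : Set (X → X)) : Type :=
  {r : Setoid X // ∀ f ∈ F, ∀ x y, r x y → r (f x) (f y)}

/-- Subrings of `R` which contain `S` and are closed under all endomorphisms in `Φ`. -/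
abbrev ClosedSubring (R : Type) [CommRing R] (S : Subring R) (Φ : Set (R →+* R)) : Type :=
  {P : Subring R // S ≤ P ∧ ∀ φ ∈ Φ, ∀ x ∈ P, φ x ∈ P}

variable {X : Type}

/-- Precomposition with `f`, a ring endomorphism of `X → ZMod 2`. -/
def pre (f : X → X) : (X → ZMod 2) →+* (X → ZMod 2) where
  toFun p := p ∘ f
  map_one' := rfl
  map_mul' _ _ := rfl
  map_zero' := rfl
  map_add' _ _ := rfl

@[simp] lemma pre_apply (f : X → X) (p : X → ZMod 2) (x : X) : pre f p x = p (f x) := rfl

/-- The functions constant on the classes of `r`. -/
def ofSetoid (r : Setoid X) : Subring (X → ZMod 2) where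
  carrier := {p | ∀ x y, r x y → p x = p y}
  mul_mem' := by
    intro a b ha hb x y h
    simp [ha x y h, hb x y h]
  one_mem' := by intro x y _; rfl
  add_mem' := by
    intro a b ha hb x y h
    simp [ha x y h, hb x y h]
  zero_mem' := by intro x y _; rfl
  neg_mem' := by
    intro a ha x y h
    simp [ha x y h]

lemma mem_ofSetoid {r : Setoid X} {p : X → ZMod 2} :
    p ∈ ofSetoid r ↔ ∀ x y, r x y → p x = p y := Iff.rfl

/-- The points not separated by `P`. -/
def toSetoid (P : Subring (X → ZMod 2)) : Setoid X where
  r x y := ∀ p ∈ P, p x = p y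
  iseqv := ⟨fun _ _ _ => rfl, fun h p hp => (h p hp).symm,
    fun h h' p hp => (h p hp).trans (h' p hp)⟩

lemma toSetoid_iff {P : Subring (X → ZMod 2)} {x y : X} :
    (toSetoid P) x y ↔ ∀ p ∈ P, p x = p y := Iff.rfl

open Classical in
/-- The indicator function of the class of `x`. -/
noncomputable def ind (r : Setoid X) (x : X) : X → ZMod 2 := fun y => if r x y then 1 else 0

open Classical in
lemma ind_mem (r : Setoid X) (x : X) : ind r x ∈ ofSetoid r := by
  intro y z h
  have : r x y ↔ r x z := ⟨fun h' => r.trans' h' h, fun h' => r.trans' h' (r.symm' h)⟩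
  simp [ind, this]

lemma toSetoid_ofSetoid (r : Setoid X) : toSetoid (ofSetoid r) = r := by
  ext x y
  constructor
  · intro h
    have := h (ind r x) (ind_mem r x)
    classical
    simp only [ind] at this
    by_contra hxy
    rw [if_pos (r.refl' x), if_neg hxy] at this
    exact one_ne_zero this
  · intro h p hp
    exact hp x y h

lemma zmod2 (a : ZMod 2) : a = 0 ∨ a = 1 := by
  revert a; decide

open Classical in
lemma ind_mem_of [Finite X] (P : Subring (X → ZMod 2)) (x : X) : ind (toSetoid P) x ∈ P := by
  classical
  have := Fintype.ofFinite X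
  -- for each `y` a function of `P` equal to `1` at `x` and `0` at `y` if separated
  have key : ∀ y, ∃ p ∈ P, p x = 1 ∧ (¬ (toSetoid P) x y → p y = 0) := by
    intro y
    by_cases h : (toSetoid P) x y
    · exact ⟨1, P.one_mem, rfl, fun h' => absurd h h'⟩
    · have h' : ∃ p ∈ P, p x ≠ p y := by
        by_contra hc
        push Not at hc
        exact h hc
      obtain ⟨p, hp, hne⟩ := h'
      rcases zmod2 (p x) with hx | hx <;> rcases zmod2 (p y) with hy | hy
      · exact absurd (hx.trans hy.symm) hne
      · refine ⟨1 - p, P.sub_mem P.one_mem hp, by simp [hx], fun _ => by simp [hy]⟩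
      · exact ⟨p, hp, hx, fun _ => hy⟩
      · exact absurd (hx.trans hy.symm) hne
  choose p hp hx hy using key
  have hprod : ∏ y, p y ∈ P := P.prod_mem fun y _ => hp y
  have : ind (toSetoid P) x = ∏ y, p y := by
    funext z
    simp only [Finset.prod_apply, ind]
    split_ifs with hz
    · symm
      apply Finset.prod_eq_one
      intro y _
      rw [← hz (p y) (hp y), hx y]
    · symm
      exact Finset.prod_eq_zero (Finset.mem_univ z) (hy z hz)
  rw [this]
  exact hprod

lemma ofSetoid_toSetoid [Finite X] (P : Subring (X → ZMod 2)) : ofSetoid (toSetoid P) = P := by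
  classical
  have := Fintype.ofFinite X
  apply le_antisymm
  · intro f hf
    -- `f` is a sum of indicators over representatives
    let r := toSetoid P
    have : Fintype (Quotient r) := Fintype.ofFinite _
    have : f = ∑ q : Quotient r, (fun _ => f q.out) * ind r q.out := by
      funext z
      simp only [Finset.sum_apply, Pi.mul_apply, ind]
      rw [Finset.sum_eq_single (Quotient.mk r z)]
      · have h1 : r (Quotient.mk r z).out z := Quotient.mk_out (s := r) z
        rw [if_pos h1, mul_one]
        exact (hf _ _ h1).symm
      · intro q _ hq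
        rw [if_neg, mul_zero]
        intro h
        apply hq
        rw [← Quotient.out_eq q]
        exact Quotient.sound h
      · intro h
        exact absurd (Finset.mem_univ _) h
    rw [this]
    refine P.sum_mem fun q _ => ?_
    have h2 := ind_mem_of P q.out
    rcases zmod2 (f q.out) with h | h
    · have : ((fun _ => f q.out) * ind r q.out : X → ZMod 2) = 0 := by
        funext z; simp [h]
      rw [this]; exact P.zero_mem
    · have : ((fun _ => f q.out) * ind r q.out : X → ZMod 2) = ind r q.out := by
        funext z; simp [h]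
      rw [this]; exact h2
  · intro p hp x y h
    exact h p hp

/-- The set of the precompositions with the maps of `F`. -/
def preSet (F : Set (X → X)) : Set ((X → ZMod 2) →+* (X → ZMod 2)) := pre '' F

lemma ofSetoid_closed {F : Set (X → X)} (r : UCon X F) :
    ∀ φ ∈ preSet F, ∀ p ∈ ofSetoid r.1, φ p ∈ ofSetoid r.1 := by
  rintro _ ⟨f, hf, rfl⟩ p hp x y h
  exact hp _ _ (r.2 f hf x y h)

lemma toSetoid_closed {F : Set (X → X)} {P : Subring (X → ZMod 2)}
    (hP : ∀ φ ∈ preSet F, ∀ p ∈ P, φ p ∈ P) :
    ∀ f ∈ F, ∀ x y, (toSetoid P) x y → (toSetoid P) (f x) (f y) := by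
  intro f hf x y h p hp
  exact h _ (hP (pre f) ⟨f, hf, rfl⟩ p hp)

/-- The order isomorphism between the dual of the congruence lattice of the unary algebra
`(X, F)` and the lattice of subrings of `X → ZMod 2` closed under the precompositions. -/
noncomputable def conDual [Finite X] (F : Set (X → X)) :
    (UCon X F)ᵒᵈ ≃o ClosedSubring (X → ZMod 2) ⊥ (preSet F) where
  toFun r := ⟨ofSetoid (OrderDual.ofDual r).1, bot_le, ofSetoid_closed (OrderDual.ofDual r)⟩
  invFun P := OrderDual.toDual ⟨toSetoid P.1, toSetoid_closed P.2.2⟩
  left_inv r := by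
    apply OrderDual.ofDual.injective
    apply Subtype.ext
    exact toSetoid_ofSetoid _
  right_inv P := by
    apply Subtype.ext
    exact ofSetoid_toSetoid _
  map_rel_iff' := by
    intro r s
    change ofSetoid (OrderDual.ofDual r).1 ≤ ofSetoid (OrderDual.ofDual s).1 ↔ r ≤ s
    rw [← OrderDual.ofDual_le_ofDual, ← Subtype.coe_le_coe]
    constructor
    · intro h x y hxy
      have h2 : (toSetoid (ofSetoid (OrderDual.ofDual r).1)) x y := by
        intro p hp
        exact (h hp) x y hxy
      rwa [toSetoid_ofSetoid] at h2
    · intro h p hp x y hxy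
      exact hp x y (h hxy)

end Vale.Agent.P183.R2.H668
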