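import Mathlib
import Vale.Agent.P183.R2.H668.Dual

/-!
The congruences of a finite algebra are those of the unary algebra of its translations; the
duality and the reformulation of the representation problem by subrings.
-/

namespace Vale.Agent.P183.R2.H668

open Vale.Agent.P183

/-- The translations of `A`: operations with all but one argument fixed. -/
def translations (A : FiniteAlgebra) : Set (A.carrier → A.carrier) :=
  {f | ∃ (i : A.index) (c : Fin (A.arity i) → A.carrier) (j : Fin (A.arity i)),
    f = fun x => A.op i (Function.update c j x)}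

lemma isCongruence_iff (A : FiniteAlgebra) (r : Setoid A.carrier) :
    A.IsCongruence r ↔ ∀ f ∈ translations A, ∀ x y, r x y → r (f x) (f y) := by
  constructor
  · rintro h _ ⟨i, c, j, rfl⟩ x y hxy
    apply h i
    intro k
    by_cases hk : k = j
    · subst hk; simpa using hxy
    · simp only [Function.update_of_ne hk]; exact r.refl' _
  · intro h i x y hxy
    have key : ∀ k : ℕ, r (A.op i x)
        (A.op i (fun j : Fin (A.arity i) => if j.1 < k then y j else x j)) := by
      intro k
      induction k with
      | zero => simp
      | succ k ih =>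
        refine r.trans' ih ?_
        by_cases hk : k < A.arity i
        · let z : Fin (A.arity i) → A.carrier := fun j => if j.1 < k then y j else x j
          have e1 : z = Function.update z ⟨k, hk⟩ (x ⟨k, hk⟩) := by
            funext j
            by_cases hj : j = ⟨k, hk⟩
            · subst hj; simp [z]
            · simp [Function.update_of_ne hj]
          have e2 : (fun j : Fin (A.arity i) => if j.1 < k + 1 then y j else x j)
              = Function.update z ⟨k, hk⟩ (y ⟨k, hk⟩) := by
            funext j
            by_cases hj : j = ⟨k, hk⟩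
            · subst hj; simp
            · have hne : j.1 ≠ k := fun h' => hj (Fin.ext h')
              rw [Function.update_of_ne hj]
              have : j.1 < k + 1 ↔ j.1 < k := by omega
              simp only [z, this]
          change r (A.op i z) _
          rw [e1, e2]
          exact h (fun t => A.op i (Function.update z ⟨k, hk⟩ t)) ⟨i, z, ⟨k, hk⟩, rfl⟩ _ _
            (hxy ⟨k, hk⟩)
        · have : (fun j : Fin (A.arity i) => if j.1 < k + 1 then y j else x j)
              = fun j : Fin (A.arity i) => if j.1 < k then y j else x j := by
            funext j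
            have h1 : j.1 < k := by omega
            have h2 : j.1 < k + 1 := by omega
            simp [h1, h2]
          rw [this]
    have := key (A.arity i)
    simpa using this

/-- The congruence lattice of `A` is that of the unary algebra of the translations. -/
def conIso (A : FiniteAlgebra) : A.Con ≃o UCon A.carrier (translations A) where
  toFun r := ⟨r.1, (isCongruence_iff A r.1).1 r.2⟩
  invFun r := ⟨r.1, (isCongruence_iff A r.1).2 r.2⟩
  left_inv _ := rfl
  right_inv _ := rfl
  map_rel_iff' := Iff.rfl

/-- The unary algebra of a set of self maps of a finite set. -/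
def unaryAlgebra (X : Type) [Finite X] [Nonempty X] (F : Set (X → X)) : FiniteAlgebra where
  carrier := X
  index := F
  arity _ := 1
  op f c := f.1 (c (0 : Fin 1))
  finite_carrier := inferInstance
  nonempty_carrier := inferInstance
  finite_index := inferInstance

/-- Its congruence lattice. -/
def unaryIso (X : Type) [Finite X] [Nonempty X] (F : Set (X → X)) :
    (unaryAlgebra X F).Con ≃o UCon X F where
  toFun r := ⟨r.1, fun f hf x y h => r.2 ⟨f, hf⟩ (fun _ => x) (fun _ => y) fun _ => h⟩
  invFun r := ⟨r.1, fun f _ _ h => r.2 f.1 f.2 _ _ (h (0 : Fin 1))⟩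
  left_inv _ := rfl
  right_inv _ := rfl
  map_rel_iff' := Iff.rfl

/-- Every representable `L` is, up to reversing the order, the lattice of the subrings closed
under some set of endomorphisms of a finite commutative ring. -/
theorem exists_closedSubring {L : Type} [LE L] (h : Representable L) :
    ∃ (X : Type) (_ : Finite X) (_ : Nonempty X) (Φ : Set ((X → ZMod 2) →+* (X → ZMod 2))),
      Nonempty (Lᵒᵈ ≃o ClosedSubring (X → ZMod 2) ⊥ Φ) := by
  obtain ⟨A, ⟨e⟩⟩ := h
  have := A.finite_carrier
  have := A.nonempty_carrier
  exact ⟨A.carrier, inferInstance, inferInstance, preSet (translations A),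
    ⟨((e.trans (conIso A)).dual).trans (conDual (translations A))⟩⟩

/-- The main theorem in the form used here. -/
def MainStatement : Prop :=
  ∀ (R : Type) [CommRing R] [Finite R] (S : Subring R) (Φ : Set (R →+* R)),
    (∀ φ ∈ Φ, ∀ x ∈ S, φ x ∈ S) → Representable (ClosedSubring R S Φ)

lemma bot_closed {R : Type} [CommRing R] (Φ : Set (R →+* R)) :
    ∀ φ ∈ Φ, ∀ x ∈ (⊥ : Subring R), φ x ∈ (⊥ : Subring R) := by
  intro φ _ x hx
  rw [Subring.mem_bot] at hx
  obtain ⟨n, rfl⟩ := hx
  rw [map_intCast]
  exact Subring.mem_bot.2 ⟨n, rfl⟩

lemma representable_congr {L M : Type} [LE L] [LE M] (e : L ≃o M) (h : Representable M) :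
    Representable L := by
  obtain ⟨A, ⟨f⟩⟩ := h
  exact ⟨A, ⟨e.trans f⟩⟩

/-- The dual of a representable lattice is representable (Kurzweil, Netter). -/
theorem dual_of_main (main : MainStatement) {L : Type} [LE L] (h : Representable L) :
    Representable Lᵒᵈ := by
  obtain ⟨X, _, _, Φ, ⟨e⟩⟩ := exists_closedSubring h
  exact representable_congr e (main (X → ZMod 2) ⊥ Φ (bot_closed Φ))

/-- All finite lattices are representable iff each of them is the lattice of subrings closed under
a set of endomorphisms, over some closed subring, of a finite commutative ring. -/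
theorem all_iff_of_main (main : MainStatement) :
    (∀ (L : Type) [Lattice L] [Finite L] [Nonempty L], Representable L) ↔
    ∀ (L : Type) [Lattice L] [Finite L] [Nonempty L],
      ∃ (R : Type) (_ : CommRing R) (_ : Finite R) (S : Subring R) (Φ : Set (R →+* R)),
        (∀ φ ∈ Φ, ∀ x ∈ S, φ x ∈ S) ∧ Nonempty (L ≃o ClosedSubring R S Φ) := by
  constructor
  · intro h L _ _ _
    have h1 : Representable Lᵒᵈ := h Lᵒᵈ
    obtain ⟨X, _, _, Φ, ⟨e⟩⟩ := exists_closedSubring h1
    have e0 : L ≃o Lᵒᵈᵒᵈ := OrderIso.dualDual L
    exact ⟨X → ZMod 2, inferInstance, inferInstance, ⊥, Φ, bot_closed Φ, ⟨e0.trans e⟩⟩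
  · intro h L _ _ _
    obtain ⟨R, _, _, S, Φ, hS, ⟨e⟩⟩ := h L
    exact representable_congr e (main R S Φ hS)

end Vale.Agent.P183.R2.H668
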