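import Mathlib
import Vale.Agent.P183.R2.H668.Unary

/-!
Intervals of subgroups closed under a set of endomorphisms are representable.
-/

namespace Vale.Agent.P183.R2.H668

open Vale.Agent.P183

/-- The subgroups between `H` and `G` closed under all endomorphisms in `Φ`. -/
abbrev ClosedInterval (G : Type) [Group G] (H : Subgroup G) (Φ : Set (G →* G)) : Type :=
  {K : Subgroup G // H ≤ K ∧ ∀ φ ∈ Φ, ∀ x ∈ K, φ x ∈ K}

variable {G : Type} [Group G] (H : Subgroup G) (Φ : Set (G →* G))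

/-- The map of the cosets of `H` induced by an endomorphism which preserves `H`. -/
def cosetMap (φ : G →* G) (h : ∀ x ∈ H, φ x ∈ H) : G ⧸ H → G ⧸ H :=
  Quotient.map' φ fun a b hab => by
    rw [QuotientGroup.leftRel_apply] at hab ⊢
    have := h _ hab
    simpa using this

@[simp] lemma cosetMap_mk (φ : G →* G) (h : ∀ x ∈ H, φ x ∈ H) (g : G) :
    cosetMap H φ h (g : G ⧸ H) = ((φ g : G) : G ⧸ H) := rfl

/-- Left translations and the maps induced by `Φ` on the cosets. -/
def opsSet (hΦ : ∀ φ ∈ Φ, ∀ x ∈ H, φ x ∈ H) : Set (G ⧸ H → G ⧸ H) :=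
  {f | (∃ g : G, f = fun x => g • x) ∨ ∃ (φ : G →* G) (h : φ ∈ Φ), f = cosetMap H φ (hΦ φ h)}

/-- The equivalence relation on the cosets of `H` given by a larger subgroup. -/
def relOf (K : Subgroup G) (hK : H ≤ K) : Setoid (G ⧸ H) where
  r x y := Quotient.map' (s₁ := QuotientGroup.leftRel H) (s₂ := QuotientGroup.leftRel K) id
      (fun a b hab => by
        rw [QuotientGroup.leftRel_apply] at hab ⊢
        exact hK hab) x = Quotient.map' (s₁ := QuotientGroup.leftRel H)
      (s₂ := QuotientGroup.leftRel K) id (fun a b hab => by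
        rw [QuotientGroup.leftRel_apply] at hab ⊢
        exact hK hab) y
  iseqv := ⟨fun _ => rfl, fun h => h.symm, fun h h' => h.trans h'⟩

lemma relOf_mk {K : Subgroup G} {hK : H ≤ K} {a b : G} :
    relOf H K hK (a : G ⧸ H) (b : G ⧸ H) ↔ a⁻¹ * b ∈ K := by
  change (Quotient.mk'' a : Quotient (QuotientGroup.leftRel K)) = Quotient.mk'' b ↔ _
  rw [Quotient.eq'']
  exact QuotientGroup.leftRel_apply

lemma smul_mk' (g a : G) : g • (a : G ⧸ H) = ((g * a : G) : G ⧸ H) := rfl

/-- The subgroup given by an equivalence relation invariant under left translations. -/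
def subOf (r : Setoid (G ⧸ H)) (hr : ∀ (g : G) (x y : G ⧸ H), r x y → r (g • x) (g • y)) :
    Subgroup G where
  carrier := {g | r ((1 : G) : G ⧸ H) (g : G ⧸ H)}
  mul_mem' := by
    intro a b ha hb
    have h1 := hr a _ _ hb
    rw [smul_mk', smul_mk', mul_one] at h1
    exact r.trans' ha h1
  one_mem' := r.refl' _
  inv_mem' := by
    intro a ha
    have h1 := hr a⁻¹ _ _ ha
    rw [smul_mk', smul_mk', mul_one, inv_mul_cancel] at h1
    exact r.symm' h1

lemma le_subOf (r : Setoid (G ⧸ H)) (hr : ∀ (g : G) (x y : G ⧸ H), r x y → r (g • x) (g • y)) :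
    H ≤ subOf H r hr := by
  intro h hh
  change r ((1 : G) : G ⧸ H) (h : G ⧸ H)
  have : ((1 : G) : G ⧸ H) = (h : G ⧸ H) := by
    rw [QuotientGroup.eq]; simpa using hh
  rw [this]

variable {H Φ} in
lemma opsSet_smul {hΦ : ∀ φ ∈ Φ, ∀ x ∈ H, φ x ∈ H} (r : UCon (G ⧸ H) (opsSet H Φ hΦ)) :
    ∀ (g : G) (x y : G ⧸ H), r.1 x y → r.1 (g • x) (g • y) :=
  fun g x y h => r.2 (fun x => g • x) (Or.inl ⟨g, rfl⟩) x y h

/-- The lattice of closed subgroups is a congruence lattice of a unary algebra. -/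
def closedIntervalIso (hΦ : ∀ φ ∈ Φ, ∀ x ∈ H, φ x ∈ H) :
    ClosedInterval G H Φ ≃o UCon (G ⧸ H) (opsSet H Φ hΦ) where
  toFun K := ⟨relOf H K.1 K.2.1, by
    intro f hf x y hxy
    obtain ⟨a, rfl⟩ := QuotientGroup.mk_surjective x
    obtain ⟨b, rfl⟩ := QuotientGroup.mk_surjective y
    rw [relOf_mk] at hxy
    rcases hf with ⟨g, rfl⟩ | ⟨φ, hφ, rfl⟩
    · change relOf H K.1 K.2.1 (g • (a : G ⧸ H)) (g • (b : G ⧸ H))
      rw [smul_mk', smul_mk', relOf_mk]
      have : (g * a)⁻¹ * (g * b) = a⁻¹ * b := by group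
      rw [this]; exact hxy
    · rw [cosetMap_mk, cosetMap_mk, relOf_mk]
      have := K.2.2 φ hφ _ hxy
      simpa using this⟩
  invFun r := ⟨subOf H r.1 (opsSet_smul r), by
    constructor
    · exact le_subOf H r.1 _
    · intro φ hφ x hx
      have h1 : r.1 ((1 : G) : G ⧸ H) (x : G ⧸ H) := hx
      have h2 := r.2 (cosetMap H φ (hΦ φ hφ)) (Or.inr ⟨φ, hφ, rfl⟩) _ _ h1
      rw [cosetMap_mk, cosetMap_mk, map_one] at h2
      exact h2⟩
  left_inv K := by
    apply Subtype.ext
    ext g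
    change relOf H K.1 K.2.1 ((1 : G) : G ⧸ H) (g : G ⧸ H) ↔ g ∈ K.1
    rw [relOf_mk]
    simp
  right_inv r := by
    apply Subtype.ext
    ext x y
    obtain ⟨a, rfl⟩ := QuotientGroup.mk_surjective x
    obtain ⟨b, rfl⟩ := QuotientGroup.mk_surjective y
    have key : r.1 (a : G ⧸ H) (b : G ⧸ H) ↔ r.1 ((1 : G) : G ⧸ H) ((a⁻¹ * b : G) : G ⧸ H) := by
      constructor
      · intro h
        have := r.2 (fun x => a⁻¹ • x) (Or.inl ⟨a⁻¹, rfl⟩) _ _ h
        simp only [smul_mk', inv_mul_cancel] at this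
        exact this
      · intro h
        have := r.2 (fun x => a • x) (Or.inl ⟨a, rfl⟩) _ _ h
        simp only [smul_mk', mul_one, mul_inv_cancel_left] at this
        exact this
    rw [key]
    exact relOf_mk (K := subOf H r.1 (opsSet_smul r)) (hK := le_subOf H r.1 _) H
  map_rel_iff' := by
    intro K L
    constructor
    · intro h g hg
      have h1 : relOf H K.1 K.2.1 ((1 : G) : G ⧸ H) (g : G ⧸ H) := by
        rw [relOf_mk]; simpa using hg
      have h2 : relOf H L.1 L.2.1 ((1 : G) : G ⧸ H) (g : G ⧸ H) := h h1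
      rw [relOf_mk] at h2
      simpa using h2
    · intro h x y hxy
      obtain ⟨a, rfl⟩ := QuotientGroup.mk_surjective x
      obtain ⟨b, rfl⟩ := QuotientGroup.mk_surjective y
      have h1 : a⁻¹ * b ∈ K.1 := (relOf_mk (K := K.1) (hK := K.2.1) H).1 hxy
      exact (relOf_mk (K := L.1) (hK := L.2.1) H).2 (h h1)

/-- Subgroups between `H` and `G` closed under `Φ` form a representable lattice. -/
theorem representable_closedInterval [Finite G] (hΦ : ∀ φ ∈ Φ, ∀ x ∈ H, φ x ∈ H) :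
    Representable (ClosedInterval G H Φ) :=
  ⟨unaryAlgebra (G ⧸ H) (opsSet H Φ hΦ),
    ⟨(closedIntervalIso H Φ hΦ).trans (unaryIso (G ⧸ H) (opsSet H Φ hΦ)).symm⟩⟩

end Vale.Agent.P183.R2.H668
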