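import Mathlib
import Vale.Agent.P183.R2.H668.Ops
import Vale.Agent.P183.R2.H668.Ext

/-!
Subspaces of a space over a prime field, and the points and lines of the plane.
-/

namespace Vale.Agent.P183.R2.H668

open Vale.Agent.P183

section Sub

variable (p : ℕ) [Fact p.Prime]

/-- Subspaces form a representable lattice. -/
theorem representable_subspaces (V : Type) [AddCommGroup V] [Module (ZMod p) V] [Finite V] :
    Representable (Submodule (ZMod p) V) := by
  have : Finite (Multiplicative V) := inferInstanceAs (Finite V)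
  have h := representable_closedInterval (G := Multiplicative V) ⊥ ∅ (by simp)
  refine Representable.of_iso ?_ h
  exact
    { toFun := fun W => ⟨AddSubgroup.toSubgroup ((AddSubgroup.toZModSubmodule p).symm W),
        bot_le, by simp⟩
      invFun := fun K => AddSubgroup.toZModSubmodule p (AddSubgroup.toSubgroup.symm K.1)
      left_inv := fun W => by simp
      right_inv := fun K => by simp
      map_rel_iff' := by
        intro W W'
        change AddSubgroup.toSubgroup _ ≤ AddSubgroup.toSubgroup _ ↔ _
        rw [OrderIso.le_iff_le]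
        exact OrderIso.le_iff_le _ }

open Module in
lemma ncard_rank_one (V : Type) [AddCommGroup V] [Module (ZMod p) V]
    (h : finrank (ZMod p) V = 3) :
    {W : Submodule (ZMod p) V | finrank (ZMod p) W = 1}.ncard ≤ 3 * p ^ 2 := by
  have h1 : Nat.card {W : Submodule (ZMod p) V // finrank (ZMod p) W = 1} =
      ∑ i ∈ Finset.range 3, Nat.card (ZMod p) ^ i := by
    rw [← Projectivization.card_of_finrank (ZMod p) V h]
    exact (Nat.card_congr (Projectivization.equivSubmodule (ZMod p) V)).symm
  change Nat.card {W : Submodule (ZMod p) V // finrank (ZMod p) W = 1} ≤ _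
  rw [h1, Nat.card_zmod]
  have hp : 1 ≤ p := (Fact.out : p.Prime).one_lt.le
  simp only [Finset.sum_range_succ, Finset.sum_range_zero]
  nlinarith

open Module in
lemma ncard_rank_two (V : Type) [AddCommGroup V] [Module (ZMod p) V] [Finite V]
    (h : finrank (ZMod p) V = 3) :
    {W : Submodule (ZMod p) V | finrank (ZMod p) W = 2}.ncard ≤ 3 * p ^ 2 := by
  have hD : finrank (ZMod p) (Dual (ZMod p) V) = 3 := by
    rw [Subspace.dual_finrank_eq, h]
  have : Finite (Dual (ZMod p) V) := Module.finite_of_finite (ZMod p)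
  refine le_trans ?_ (ncard_rank_one p (Dual (ZMod p) V) hD)
  refine Set.ncard_le_ncard_of_injOn (fun W => W.dualAnnihilator) ?_ ?_ (Set.toFinite _)
  · intro W hW
    have := Subspace.finrank_add_finrank_dualAnnihilator_eq W
    rw [h] at this
    have hW' : finrank (ZMod p) W = 2 := hW
    change finrank (ZMod p) W.dualAnnihilator = 1
    omega
  · intro W _ W' _ hWW
    exact Subspace.dualAnnihilator_inj.1 hWW

open Module in
/-- The number of subspaces of a three-dimensional space. -/
lemma card_subspaces (V : Type) [AddCommGroup V] [Module (ZMod p) V] [Finite V]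
    (h : finrank (ZMod p) V = 3) : Nat.card (Submodule (ZMod p) V) ≤ 2 + 6 * p ^ 2 := by
  have h1 : (Set.univ : Set (Submodule (ZMod p) V)) ⊆ ({⊥, ⊤} : Set (Submodule (ZMod p) V)) ∪
      ({W | finrank (ZMod p) W = 1} ∪ {W | finrank (ZMod p) W = 2}) := by
    intro W _
    have h2 : finrank (ZMod p) W ≤ 3 := h ▸ Submodule.finrank_le W
    have h3 : finrank (ZMod p) W = 0 ∨ finrank (ZMod p) W = 1 ∨ finrank (ZMod p) W = 2 ∨
      finrank (ZMod p) W = 3 := by omega
    rcases h3 with h3 | h3 | h3 | h3
    · exact Or.inl (Or.inl (Submodule.finrank_eq_zero.1 h3))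
    · exact Or.inr (Or.inl h3)
    · exact Or.inr (Or.inr h3)
    · exact Or.inl (Or.inr (Submodule.eq_top_of_finrank_eq (h3.trans h.symm)))
  rw [← Set.ncard_univ]
  refine (Set.ncard_le_ncard h1 (Set.toFinite _)).trans ?_
  refine (Set.ncard_union_le _ _).trans ?_
  have h2 : ({⊥, ⊤} : Set (Submodule (ZMod p) V)).ncard ≤ 2 :=
    (Set.ncard_insert_le _ _).trans (by simp)
  have h3 := Set.ncard_union_le {W : Submodule (ZMod p) V | finrank (ZMod p) W = 1}
    {W | finrank (ZMod p) W = 2}
  have h4 := ncard_rank_one p V h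
  have h5 := ncard_rank_two p V h
  omega

end Sub

section Points

variable (F : Type) [Field F]

/-- The space. -/
abbrev Sp3 : Type := Fin 3 → F

variable {F}

/-- The point with coordinates `a`, `b`. -/
def pt (a b : F) : Submodule F (Sp3 F) := Submodule.span F {![a, b, 1]}

/-- The line with slope `m` and intercept `k`. -/
def ln (m k : F) : Submodule F (Sp3 F) := Submodule.span F {![1, m, 0], ![0, k, 1]}

lemma mem_pt {a b : F} {v : Sp3 F} : v ∈ pt a b ↔ ∃ c : F, c • ![a, b, 1] = v :=
  Submodule.mem_span_singleton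

lemma mem_ln {m k : F} {v : Sp3 F} :
    v ∈ ln m k ↔ ∃ s t : F, s • ![1, m, 0] + t • ![0, k, 1] = v :=
  Submodule.mem_span_pair

lemma dir_notMem_pt (a b m : F) : (![1, m, 0] : Sp3 F) ∉ pt a b := by
  rw [mem_pt]
  rintro ⟨c, hc⟩
  have h2 := congrFun hc 2
  have h0 := congrFun hc 0
  simp at h2 h0
  rw [h2] at h0
  simp at h0

lemma dir_mem_ln (m k : F) : (![1, m, 0] : Sp3 F) ∈ ln m k :=
  Submodule.subset_span (by simp)

lemma ln_eq (a m k : F) : ln m k = Submodule.span F {![1, m, 0]} ⊔ pt a (m * a + k) := by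
  apply le_antisymm
  · rw [ln, Submodule.span_le]
    intro v hv
    rcases hv with rfl | hv
    · exact Submodule.mem_sup_left (Submodule.mem_span_singleton_self _)
    · rw [Set.mem_singleton_iff] at hv
      subst hv
      have : (![0, k, 1] : Sp3 F) = (-a) • ![1, m, 0] + ![a, m * a + k, 1] := by
        ext i
        fin_cases i
        · simp
        · simp; ring
        · simp
      rw [this]
      exact Submodule.add_mem_sup (Submodule.smul_mem _ _ (Submodule.mem_span_singleton_self _))
        (Submodule.mem_span_singleton_self _)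
  · apply sup_le
    · rw [Submodule.span_singleton_le_iff_mem]
      exact dir_mem_ln m k
    · rw [pt, Submodule.span_singleton_le_iff_mem, mem_ln]
      refine ⟨a, 1, ?_⟩
      ext i
      fin_cases i <;> simp <;> ring

lemma pt_covBy_ln (a m k : F) : pt a (m * a + k) ⋖ ln m k := by
  rw [ln_eq a m k]
  exact Submodule.covBy_span_singleton_sup (dir_notMem_pt _ _ _)

lemma pt_ne_ln (a b m k : F) : pt a b ≠ ln m k := by
  intro h
  exact dir_notMem_pt a b m (h ▸ dir_mem_ln m k)

lemma pt_inj {a b a' b' : F} (h : pt a b = pt a' b') : a = a' ∧ b = b' := by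
  have h1 : (![a, b, 1] : Sp3 F) ∈ pt a' b' := h ▸ Submodule.mem_span_singleton_self _
  obtain ⟨c, hc⟩ := mem_pt.1 h1
  have h2 := congrFun hc 2
  have h0 := congrFun hc 0
  have h3 := congrFun hc 1
  simp at h2 h0 h3
  subst h2
  simp at h0 h3
  exact ⟨h0.symm, h3.symm⟩

lemma ln_inj {m k m' k' : F} (h : ln m k = ln m' k') : m = m' ∧ k = k' := by
  have h1 : (![1, m, 0] : Sp3 F) ∈ ln m' k' := h ▸ dir_mem_ln m k
  have h2 : (![0, k, 1] : Sp3 F) ∈ ln m' k' := h ▸ Submodule.subset_span (by simp)
  obtain ⟨s, t, hst⟩ := mem_ln.1 h1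
  obtain ⟨s', t', hst'⟩ := mem_ln.1 h2
  have e0 := congrFun hst 0
  have e1 := congrFun hst 1
  have e2 := congrFun hst 2
  have f0 := congrFun hst' 0
  have f1 := congrFun hst' 1
  have f2 := congrFun hst' 2
  simp at e0 e1 e2 f0 f1 f2
  subst e0 e2 f0 f2
  simp at e1 f1
  exact ⟨e1.symm, f1.symm⟩

end Points

end Vale.Agent.P183.R2.H668
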