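import Mathlib
import Vale.Agent.P183.R2.H668.Plane

/-!
Counting the extensions of the subspace lattice of the plane.
-/

namespace Vale.Agent.P183.R2.H668

open Vale.Agent.P183

section Pad

variable (K : Type) [Lattice K] [OrderTop K] (s : ℕ)

/-- The lattice with a chain of `s` elements added on top. -/
def padSub : Sublattice (K × Fin (s + 1)) where
  carrier := {x | x.1 = ⊤ ∨ x.2 = 0}
  supClosed' := by
    rintro ⟨a, i⟩ ha ⟨b, j⟩ hb
    simp only [Set.mem_ofPred_eq, Prod.mk_sup_mk] at ha hb ⊢
    rcases ha with rfl | rfl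
    · left; simp
    · rcases hb with rfl | rfl
      · left; simp
      · right; simp
  infClosed' := by
    rintro ⟨a, i⟩ ha ⟨b, j⟩ hb
    simp only [Set.mem_ofPred_eq, Prod.mk_inf_mk] at ha hb ⊢
    rcases ha with rfl | rfl
    · rcases hb with rfl | rfl
      · left; simp
      · right
        exact le_antisymm inf_le_right (Fin.zero_le _)
    · right
      exact le_antisymm inf_le_left (Fin.zero_le _)

/-- The padded lattice. -/
abbrev Pad : Type := padSub K s

variable {K}

/-- The lattice as a part of the padded lattice. -/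
def padIn (x : K) : Pad K s := ⟨(x, 0), Or.inr rfl⟩

lemma padIn_inj : Function.Injective (padIn (K := K) s) := by
  intro x y h
  exact congrArg (fun z : Pad K s => z.1.1) h

lemma padIn_le {x y : K} : padIn s x ≤ padIn s y ↔ x ≤ y :=
  ⟨fun h => h.1, fun h => ⟨h, le_refl _⟩⟩

lemma padIn_covBy {x y : K} (h : x ⋖ y) : padIn s x ⋖ padIn s y := by
  refine ⟨?_, ?_⟩
  · rw [lt_iff_le_not_ge, padIn_le, padIn_le]
    exact lt_iff_le_not_ge.1 h.1
  · rintro ⟨⟨z, i⟩, hz⟩ h1 h2
    have hi : i = 0 := le_antisymm h2.le.2 (Fin.zero_le _)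
    subst hi
    have h3 : padIn s x < padIn s z := h1
    have h4 : padIn s z < padIn s y := h2
    rw [lt_iff_le_not_ge, padIn_le, padIn_le, ← lt_iff_le_not_ge] at h3 h4
    exact h.2 h3 h4

variable (K)

lemma card_pad [Finite K] : Nat.card (Pad K s) = Nat.card K + s := by
  let g : K ⊕ Fin s → Pad K s := fun x => x.elim (fun k => padIn s k)
    (fun i => ⟨(⊤, i.succ), Or.inl rfl⟩)
  have hg : Function.Bijective g := by
    constructor
    · rintro (x | i) (y | j) h
      · exact congrArg Sum.inl (padIn_inj s h)
      · exact absurd (congrArg (fun z : Pad K s => z.1.2) h) (Fin.succ_ne_zero j).symm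
      · exact absurd (congrArg (fun z : Pad K s => z.1.2) h) (Fin.succ_ne_zero i)
      · exact congrArg Sum.inr (Fin.succ_injective _ (congrArg (fun z : Pad K s => z.1.2) h))
    · rintro ⟨⟨x, i⟩, hx⟩
      rcases Fin.eq_zero_or_eq_succ i with rfl | ⟨j, rfl⟩
      · exact ⟨Sum.inl x, rfl⟩
      · have hx' : x = ⊤ := by
          rcases hx with h | h
          · exact h
          · exact absurd h (Fin.succ_ne_zero j)
        subst hx'
        exact ⟨Sum.inr j, rfl⟩
  rw [← Nat.card_congr (Equiv.ofBijective g hg), Nat.card_sum, Nat.card_fin]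

lemma representable_pad [Finite K] (hK : Representable K) : Representable (Pad K s) := by
  have hne : Nonempty (Pad K s) := ⟨padIn s ⊤⟩
  apply representable_of_separated
  rintro ⟨⟨a, i⟩, ha⟩ ⟨⟨b, j⟩, hb⟩ hab
  by_cases h : a = b
  · subst h
    have hij : i ≠ j := fun h => hab (by subst h; rfl)
    let F : ℕ → LatticeHom (Pad K s) Bool := fun t =>
      { toFun := fun x => decide (t ≤ x.1.2.val)
        map_sup' := by
          intro x y
          change decide (t ≤ (x.1.2 ⊔ y.1.2).val) = (decide _ || decide _)
          rcases le_total x.1.2 y.1.2 with h | h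
          · rw [sup_eq_right.2 h]
            by_cases h1 : t ≤ x.1.2.val
            · have := h1.trans h
              simp [h1, this]
            · simp [h1]
          · rw [sup_eq_left.2 h]
            by_cases h1 : t ≤ y.1.2.val
            · have := h1.trans h
              simp [h1, this]
            · simp [h1]
        map_inf' := by
          intro x y
          change decide (t ≤ (x.1.2 ⊓ y.1.2).val) = (decide _ && decide _)
          rcases le_total x.1.2 y.1.2 with h | h
          · rw [inf_eq_left.2 h]
            by_cases h1 : t ≤ x.1.2.val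
            · have := h1.trans h
              simp [h1, this]
            · simp [h1]
          · rw [inf_eq_right.2 h]
            by_cases h1 : t ≤ y.1.2.val
            · have := h1.trans h
              simp [h1, this]
            · simp [h1] }
    have key : ∀ (i j : Fin (s + 1)) (ha : (a, i) ∈ padSub K s) (hb : (a, j) ∈ padSub K s),
        i < j → ∃ f : LatticeHom (Pad K s) Bool, Function.Surjective f ∧
          f ⟨(a, i), ha⟩ ≠ f ⟨(a, j), hb⟩ := by
      intro i j ha hb hlt
      have h1 : F j.val ⟨(a, i), ha⟩ = false := decide_eq_false (not_le.2 hlt)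
      have h2 : F j.val ⟨(a, j), hb⟩ = true := decide_eq_true le_rfl
      refine ⟨F j.val, ?_, ?_⟩
      · intro b
        cases b
        · exact ⟨_, h1⟩
        · exact ⟨_, h2⟩
      · rw [h1, h2]; simp
    rcases lt_or_gt_of_ne hij with hlt | hlt
    · obtain ⟨f, hf, hne⟩ := key i j ha hb hlt
      exact ⟨Bool, inferInstance, f, hf, representable_bool, hne⟩
    · obtain ⟨f, hf, hne⟩ := key j i hb ha hlt
      exact ⟨Bool, inferInstance, f, hf, representable_bool, hne.symm⟩
  · refine ⟨K, inferInstance,
      { toFun := fun x => x.1.1, map_sup' := fun _ _ => rfl, map_inf' := fun _ _ => rfl },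
      ?_, hK, h⟩
    intro k
    exact ⟨padIn s k, rfl⟩

end Pad

section Family

/-- Pairwise non-isomorphic congruence lattices from pairwise different orders. -/
lemma exists_family {α ι₀ : Type} [Finite α] [Finite ι₀] (R : ι₀ → α → α → Prop)
    (hR : Function.Injective R)
    (hrep : ∀ i, ∃ A : FiniteAlgebra, ∃ e : α ≃ A.Con, ∀ x y, R i x y ↔ e x ≤ e y) :
    ∃ (ι : Type) (_ : Fintype ι) (A : ι → FiniteAlgebra),
      (∀ i, Nat.card (A i).Con = Nat.card α) ∧
      (∀ i j, Nonempty ((A i).Con ≃o (A j).Con) → i = j) ∧
      Nat.card ι₀ ≤ Fintype.card ι * (Nat.card α).factorial := by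
  classical
  choose A e he using hrep
  let S : Setoid ι₀ :=
    { r := fun i j => Nonempty ((A i).Con ≃o (A j).Con)
      iseqv := ⟨fun i => ⟨OrderIso.refl _⟩, fun ⟨f⟩ => ⟨f.symm⟩, fun ⟨f⟩ ⟨g⟩ => ⟨f.trans g⟩⟩ }
  have hfin : Finite (Quotient S) := inferInstance
  have hfinP : Finite (Equiv.Perm α) := inferInstance
  let hft : Fintype (Quotient S) := Fintype.ofFinite _
  refine ⟨Quotient S, hft, fun q => A q.out, ?_, ?_, ?_⟩
  · intro q
    exact (Nat.card_congr (e q.out)).symm
  · intro q q' h
    rw [← Quotient.out_eq q, ← Quotient.out_eq q']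
    exact Quotient.sound h
  · have hex : ∀ i : ι₀, Nonempty ((A i).Con ≃o (A (Quotient.mk S i).out).Con) := by
      intro i
      have h : S i (Quotient.mk S i).out := Setoid.symm (Quotient.mk_out i)
      exact h
    let φ := fun i => (hex i).some
    let G : ι₀ → Quotient S × Equiv.Perm α := fun i =>
      (Quotient.mk S i, ((e i).trans (φ i).toEquiv).trans (e (Quotient.mk S i).out).symm)
    have hG : ∀ i x y, R i x y ↔ R (G i).1.out ((G i).2 x) ((G i).2 y) := by
      intro i x y
      rw [he, he]
      change _ ↔ e (Quotient.mk S i).out ((e (Quotient.mk S i).out).symm (φ i (e i x))) ≤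
        e (Quotient.mk S i).out ((e (Quotient.mk S i).out).symm (φ i (e i y)))
      rw [Equiv.apply_symm_apply, Equiv.apply_symm_apply, OrderIso.le_iff_le]
    have hinj : Function.Injective G := by
      intro i j hij
      apply hR
      funext x y
      apply propext
      rw [hG i, hG j, hij]
    have h1 := Nat.card_le_card_of_injective G hinj
    rw [Nat.card_prod, Nat.card_perm] at h1
    rwa [← Nat.card_eq_fintype_card]

end Family

end Vale.Agent.P183.R2.H668
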