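import Mathlib

/-!
Stable range one for finite commutative rings, and generation of the special linear groups over
them by elementary matrices.
-/

namespace Vale.Agent.P183.R2.H668

open Matrix

/-- In a finite monoid some positive power of every element is idempotent. -/
lemma exists_pow_idem {M : Type*} [Monoid M] [Finite M] (x : M) :
    ∃ m : ℕ, 0 < m ∧ IsIdempotentElem (x ^ m) := by
  obtain ⟨i, j, hij, h⟩ : ∃ i j : ℕ, i < j ∧ x ^ i = x ^ j := by
    obtain ⟨a, b, hab, h⟩ := Finite.exists_ne_map_eq_of_infinite (fun n : ℕ => x ^ n)
    rcases lt_or_gt_of_ne hab with h1 | h1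
    · exact ⟨a, b, h1, h⟩
    · exact ⟨b, a, h1, h.symm⟩
  obtain ⟨d, rfl⟩ := Nat.exists_eq_add_of_lt hij
  -- period `d + 1` from `i` on
  have hper : ∀ k n : ℕ, i ≤ n → x ^ (n + k * (d + 1)) = x ^ n := by
    intro k
    induction k with
    | zero => intro n _; simp
    | succ k ih =>
      intro n hn
      have h1 : x ^ (n + (d + 1)) = x ^ n := by
        obtain ⟨c, rfl⟩ := Nat.exists_eq_add_of_le hn
        have : i + c + (d + 1) = (i + d + 1) + c := by ring
        rw [this, pow_add, ← h, ← pow_add]
      have : n + (k + 1) * (d + 1) = (n + (d + 1)) + k * (d + 1) := by ring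
      rw [this, ih _ (by omega), h1]
  refine ⟨(i + 1) * (d + 1), by positivity, ?_⟩
  change x ^ _ * x ^ _ = x ^ _
  rw [← pow_add]
  exact hper (i + 1) _ (by nlinarith)

/-- Finite commutative rings have stable range one. -/
lemma exists_isUnit_add {P : Type*} [CommRing P] [Finite P] {a x w : P} (h : a * x + w = 1) :
    ∃ f : P, IsUnit (x + f * w) := by
  obtain ⟨m, hm, he⟩ := exists_pow_idem x
  refine ⟨1 - x ^ m, ?_⟩
  by_contra hu
  obtain ⟨I, hI, hmem⟩ := exists_max_ideal_of_mem_nonunits hu
  have hp := hI.isPrime
  by_cases hx : x ∈ I
  · have hxm : x ^ m ∈ I := I.pow_mem_of_mem hx m hm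
    have h1 : w ∈ I := by
      have : w = (x + (1 - x ^ m) * w) - x + x ^ m * w := by ring
      rw [this]
      exact I.add_mem (I.sub_mem hmem hx) (I.mul_mem_right _ hxm)
    exact hI.ne_top ((Ideal.eq_top_iff_one I).2 (h ▸ I.add_mem (I.mul_mem_left a hx) h1))
  · have h2 : x ^ m * (1 - x ^ m) = 0 := by
      rw [mul_sub, mul_one, he.eq, sub_self]
    have h3 : 1 - x ^ m ∈ I := by
      have : x ^ m * (1 - x ^ m) ∈ I := by rw [h2]; exact I.zero_mem
      rcases hp.mem_or_mem this with h4 | h4
      · exact absurd (hp.mem_of_pow_mem m h4) hx
      · exact h4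
    apply hx
    have : x = (x + (1 - x ^ m) * w) - (1 - x ^ m) * w := by ring
    rw [this]
    exact I.sub_mem hmem (I.mul_mem_right _ h3)

variable {n : Type*} [Fintype n] [DecidableEq n] {P : Type*} [CommRing P]

/-- The elementary matrix with entry `c` at `(i, j)`. -/
def tr (i j : n) (h : i ≠ j) (c : P) : SpecialLinearGroup n P :=
  ⟨transvection i j c, det_transvection_of_ne i j h c⟩

/-- The subgroup generated by the elementary matrices. -/
def elemSubgroup (n P : Type*) [Fintype n] [DecidableEq n] [CommRing P] :
    Subgroup (SpecialLinearGroup n P) :=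
  Subgroup.closure {g | ∃ (i j : n) (c : P), i ≠ j ∧ (g : Matrix n n P) = transvection i j c}

lemma tr_mem (i j : n) (h : i ≠ j) (c : P) : tr i j h c ∈ elemSubgroup n P :=
  Subgroup.subset_closure ⟨i, j, c, h, rfl⟩

lemma tr_mul_apply (i j : n) (h : i ≠ j) (c : P) (g : SpecialLinearGroup n P) (a b : n) :
    (tr i j h c * g) a b = if a = i then g i b + c * g j b else g a b := by
  change (transvection i j c * (g : Matrix n n P)) a b = _
  split_ifs with ha
  · subst ha; exact transvection_mul_apply_same _ _ _ _ _
  · exact transvection_mul_apply_of_ne _ _ _ _ ha _ _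

lemma mul_tr_apply (i j : n) (h : i ≠ j) (c : P) (g : SpecialLinearGroup n P) (a b : n) :
    (g * tr i j h c) a b = if b = j then g a j + c * g a i else g a b := by
  change ((g : Matrix n n P) * transvection i j c) a b = _
  split_ifs with hb
  · subst hb; exact mul_transvection_apply_same _ _ _ _ _
  · exact mul_transvection_apply_of_ne _ _ _ _ hb _ _

/-- Add a combination of the rows in `U` to row `t`. -/
lemma rows_to_row (t : n) (c : n → P) (U : Finset n) (hU : t ∉ U) :
    ∃ x ∈ elemSubgroup n P, ∀ (g : SpecialLinearGroup n P) (a b : n),
      (x * g) a b = if a = t then g t b + ∑ j ∈ U, c j * g j b else g a b := by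
  induction U using Finset.induction_on with
  | empty => exact ⟨1, one_mem _, fun g a b => by
      rw [one_mul]; split_ifs with h
      · subst h; simp
      · rfl⟩
  | insert k U hk ih =>
    have htk : t ≠ k := fun h => hU (h ▸ Finset.mem_insert_self _ _)
    obtain ⟨x, hx, hxg⟩ := ih fun h => hU (Finset.mem_insert_of_mem h)
    refine ⟨tr t k htk (c k) * x, mul_mem (tr_mem _ _ _ _) hx, fun g a b => ?_⟩
    rw [mul_assoc, tr_mul_apply]
    split_ifs with ha
    · rw [hxg, hxg, if_pos rfl, if_neg htk.symm, Finset.sum_insert hk]; ring
    · rw [hxg, if_neg ha]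

/-- Add multiples of row `t` to the rows in `U`. -/
lemma row_to_rows (t : n) (c : n → P) (U : Finset n) (hU : t ∉ U) :
    ∃ x ∈ elemSubgroup n P, ∀ (g : SpecialLinearGroup n P) (a b : n),
      (x * g) a b = if a ∈ U then g a b + c a * g t b else g a b := by
  induction U using Finset.induction_on with
  | empty => exact ⟨1, one_mem _, fun g a b => by rw [one_mul]; simp⟩
  | insert k U hk ih =>
    have htk : k ≠ t := fun h => hU (h ▸ Finset.mem_insert_self _ _)
    have htU : t ∉ U := fun h => hU (Finset.mem_insert_of_mem h)
    obtain ⟨x, hx, hxg⟩ := ih htU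
    refine ⟨tr k t htk (c k) * x, mul_mem (tr_mem _ _ _ _) hx, fun g a b => ?_⟩
    rw [mul_assoc, tr_mul_apply]
    by_cases ha : a = k
    · subst ha
      rw [if_pos rfl, hxg, hxg, if_neg hk, if_neg htU, if_pos (Finset.mem_insert_self _ _)]
    · rw [if_neg ha, hxg]
      simp only [Finset.mem_insert, ha, false_or]

/-- Add multiples of column `t` to the columns in `U`. -/
lemma col_to_cols (t : n) (c : n → P) (U : Finset n) (hU : t ∉ U) :
    ∃ x ∈ elemSubgroup n P, ∀ (g : SpecialLinearGroup n P) (a b : n),
      (g * x) a b = if b ∈ U then g a b + c b * g a t else g a b := by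
  induction U using Finset.induction_on with
  | empty => exact ⟨1, one_mem _, fun g a b => by rw [mul_one]; simp⟩
  | insert k U hk ih =>
    have htk : t ≠ k := fun h => hU (h ▸ Finset.mem_insert_self _ _)
    have htU : t ∉ U := fun h => hU (Finset.mem_insert_of_mem h)
    obtain ⟨x, hx, hxg⟩ := ih htU
    refine ⟨x * tr t k htk (c k), mul_mem hx (tr_mem _ _ _ _), fun g a b => ?_⟩
    rw [← mul_assoc, mul_tr_apply]
    by_cases ha : b = k
    · subst ha
      rw [if_pos rfl, hxg, hxg, if_neg hk, if_neg htU, if_pos (Finset.mem_insert_self _ _)]
    · rw [if_neg ha, hxg]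
      simp only [Finset.mem_insert, ha, false_or]

/-- `g` is the identity outside `T`. -/
def IdOut (T : Finset n) (g : SpecialLinearGroup n P) : Prop :=
  ∀ a b, (a ∉ T ∨ b ∉ T) → g a b = if a = b then 1 else 0

lemma mem_of_idOut [Finite P] (T : Finset n) :
    ∀ g : SpecialLinearGroup n P, IdOut T g → g ∈ elemSubgroup n P := by
  induction T using Finset.induction_on with
  | empty =>
    intro g hg
    have : g = 1 := by
      ext a b
      rw [hg a b (Or.inl (Finset.notMem_empty _))]
      simp [Matrix.one_apply]
    rw [this]; exact one_mem _
  | insert t T ht ih =>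
    intro g hg
    by_cases hT : T = ∅
    · -- only the diagonal entry at `t`
      subst hT
      have hoff : ∀ a b, a ≠ b → g a b = 0 := by
        intro a b hab
        rw [hg a b, if_neg hab]
        by_contra hc
        push Not at hc
        have h1 : a = t := by simpa using hc.1
        have h2 : b = t := by simpa using hc.2
        exact hab (h1.trans h2.symm)
      have hdiag : (g : Matrix n n P) = Matrix.diagonal (fun a => if a = t then g t t else 1) := by
        ext a b
        by_cases hab : a = b
        · subst hab
          rw [Matrix.diagonal_apply_eq]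
          split_ifs with h
          · subst h; rfl
          · have := hg a a (Or.inl (by simpa using h))
            rw [if_pos rfl] at this
            exact this
        · rw [Matrix.diagonal_apply_ne _ hab]
          exact hoff a b hab
      have hdet : g t t = 1 := by
        have h1 := g.det_coe
        rw [hdiag, Matrix.det_diagonal, Finset.prod_ite_eq'] at h1
        simpa using h1
      have : g = 1 := by
        ext a b
        by_cases hab : a = b
        · subst hab
          by_cases h : a = t
          · subst h; simpa using hdet
          · have := hg a a (Or.inl (by simpa using h))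
            rw [if_pos rfl] at this
            simpa using this
        · rw [hoff a b hab]; simp [hab]
      rw [this]; exact one_mem _
    · obtain ⟨s, hs⟩ := Finset.nonempty_iff_ne_empty.2 hT
      have hst : s ≠ t := fun h => ht (h ▸ hs)
      -- the column `t` is unimodular
      have huni : (g⁻¹ t t) * g t t + ∑ j ∈ T, (g⁻¹) t j * g j t = 1 := by
        have h1 : (g⁻¹ * g) t t = 1 := by rw [inv_mul_cancel]; simp
        have h1 : ∑ j, (g⁻¹) t j * g j t = 1 := h1
        rw [← Finset.sum_subset (Finset.subset_univ (insert t T)), Finset.sum_insert ht] at h1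
        · exact h1
        · intro j _ hj
          have hjt : j ≠ t := fun h => hj (h ▸ Finset.mem_insert_self _ _)
          have := hg j t (Or.inl hj)
          rw [if_neg hjt] at this
          rw [this, mul_zero]
      obtain ⟨f, hf⟩ := exists_isUnit_add huni
      -- step A
      obtain ⟨x1, hx1, h1⟩ := rows_to_row t (fun j => f * (g⁻¹) t j) T ht
      set g1 := x1 * g with hg1
      have hu : IsUnit (g1 t t) := by
        rw [h1, if_pos rfl]
        simp only [mul_assoc]
        rw [← Finset.mul_sum]
        exact hf
      have hI1 : IdOut (insert t T) g1 := by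
        intro a b hab
        rw [h1]
        split_ifs with ha hb hb
        · -- a = t, a = b
          subst ha; subst hb
          exact absurd hab (by simp)
        · subst ha
          have hb' : b ∉ insert a T := by
            rcases hab with h | h
            · exact absurd (Finset.mem_insert_self _ _) h
            · exact h
          rw [hg a b hab, if_neg hb, zero_add]
          apply Finset.sum_eq_zero
          intro j hj
          have hjb : j ≠ b := fun h => hb' (h ▸ Finset.mem_insert_of_mem hj)
          rw [hg j b (Or.inr hb'), if_neg hjb, mul_zero]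
        · rw [hg a b hab, if_pos hb]
        · rw [hg a b hab, if_neg hb]
      obtain ⟨u, hu'⟩ := hu
      -- step A'
      set g2 := tr s t hst ((1 - g1 t t - g1 s t) * (↑u⁻¹ : P)) * g1 with hg2
      set g3 := tr t s hst.symm 1 * g2 with hg3
      have e2 : g2 s t = 1 - g1 t t := by
        rw [hg2, tr_mul_apply, if_pos rfl, ← hu']
        rw [mul_assoc, Units.inv_mul, mul_one]; ring
      have e2' : g2 t t = g1 t t := by
        rw [hg2, tr_mul_apply, if_neg hst.symm]
      have e3 : g3 t t = 1 := by
        rw [hg3, tr_mul_apply, if_pos rfl, e2, e2']; ring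
      have hI2 : IdOut (insert t T) g2 := by
        intro a b hab
        rw [hg2, tr_mul_apply]
        by_cases ha : a = s
        · subst ha
          have hb' : b ∉ insert t T := by
            rcases hab with h | h
            · exact absurd (Finset.mem_insert_of_mem hs) h
            · exact h
          have hbt : t ≠ b := fun h => hb' (h ▸ Finset.mem_insert_self _ _)
          rw [if_pos rfl, hI1 a b hab, hI1 t b (Or.inr hb'), if_neg hbt, mul_zero, add_zero]
        · rw [if_neg ha, hI1 a b hab]
      have hI3 : IdOut (insert t T) g3 := by
        intro a b hab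
        rw [hg3, tr_mul_apply]
        by_cases ha : a = t
        · subst ha
          have hb' : b ∉ insert a T := by
            rcases hab with h | h
            · exact absurd (Finset.mem_insert_self _ _) h
            · exact h
          have hbs : s ≠ b := fun h => hb' (h ▸ Finset.mem_insert_of_mem hs)
          rw [if_pos rfl, hI2 a b hab, hI2 s b (Or.inr hb'), if_neg hbs, mul_zero, add_zero]
        · rw [if_neg ha, hI2 a b hab]
      -- step B
      obtain ⟨x4, hx4, h4⟩ := row_to_rows t (fun a => - g3 a t) T ht
      set g4 := x4 * g3 with hg4
      have e4 : g4 t t = 1 := by rw [h4, if_neg ht, e3]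
      have e4' : ∀ a ∈ T, g4 a t = 0 := by
        intro a ha
        rw [h4, if_pos ha, e3]; ring
      have hI4 : IdOut (insert t T) g4 := by
        intro a b hab
        rw [h4]
        by_cases ha : a ∈ T
        · have hb' : b ∉ insert t T := by
            rcases hab with h | h
            · exact absurd (Finset.mem_insert_of_mem ha) h
            · exact h
          have hbt : t ≠ b := fun h => hb' (h ▸ Finset.mem_insert_self _ _)
          rw [if_pos ha, hI3 a b hab, hI3 t b (Or.inr hb'), if_neg hbt, mul_zero, add_zero]
        · rw [if_neg ha, hI3 a b hab]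
      -- step C
      obtain ⟨x5, hx5, h5⟩ := col_to_cols t (fun b => - g4 t b) T ht
      set g5 := g4 * x5 with hg5
      have hI5 : IdOut T g5 := by
        intro a b hab
        rw [h5]
        by_cases hb : b ∈ T
        · rw [if_pos hb]
          have ha : a ∉ T := by
            rcases hab with h | h
            · exact h
            · exact absurd hb h
          have hbt : b ≠ t := fun h => ht (h ▸ hb)
          by_cases hat : a = t
          · subst hat
            rw [e4, if_neg hbt.symm]; ring
          · have ha' : a ∉ insert t T := by simp [hat, ha]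
            rw [hI4 a b (Or.inl ha'), hI4 a t (Or.inl ha'), if_neg hat, mul_zero, add_zero]
        · rw [if_neg hb]
          by_cases hbt : b = t
          · subst hbt
            by_cases ha : a ∈ T
            · rw [e4' a ha, if_neg (fun h : a = b => ht (h ▸ ha))]
            · by_cases hat : a = b
              · subst hat; rw [if_pos rfl]; exact e4
              · have ha' : a ∉ insert b T := by simp [hat, ha]
                exact hI4 a b (Or.inl ha')
          · have hb' : b ∉ insert t T := by simp [hbt, hb]
            exact hI4 a b (Or.inr hb')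
      have h5mem := ih g5 hI5
      have h4mem : g4 ∈ elemSubgroup n P := by
        have := mul_mem h5mem (inv_mem hx5)
        rwa [hg5, mul_inv_cancel_right] at this
      have h3mem : g3 ∈ elemSubgroup n P := by
        have := mul_mem (inv_mem hx4) h4mem
        rwa [hg4, inv_mul_cancel_left] at this
      have h2mem : g2 ∈ elemSubgroup n P := by
        have := mul_mem (inv_mem (tr_mem t s hst.symm (1 : P))) h3mem
        rwa [hg3, inv_mul_cancel_left] at this
      have h1mem : g1 ∈ elemSubgroup n P := by
        have := mul_mem (inv_mem (tr_mem s t hst ((1 - g1 t t - g1 s t) * (↑u⁻¹ : P)))) h2mem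
        rwa [hg2, inv_mul_cancel_left] at this
      have := mul_mem (inv_mem hx1) h1mem
      rwa [hg1, inv_mul_cancel_left] at this

/-- The special linear group of a finite commutative ring is generated by elementary matrices. -/
theorem elemSubgroup_eq_top (n P : Type*) [Fintype n] [DecidableEq n] [CommRing P] [Finite P] :
    elemSubgroup n P = ⊤ := by
  rw [eq_top_iff]
  intro g _
  exact mem_of_idOut Finset.univ g fun a b h => by simp at h

end Vale.Agent.P183.R2.H668
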