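import Mathlib
import Vale.Agent.P183.R2.H668.Count

/-!
Sets of flags of the plane give different orders on one set.
-/

namespace Vale.Agent.P183.R2.H668

open Vale.Agent.P183

section Card

variable {K : Type} [Lattice K]

lemma card_car [Finite K] (Sp : Set K) : Nat.card (Car Sp) = Nat.card K + Sp.ncard := by
  let g : K ⊕ Sp → Car Sp := fun x => x.elim (fun k => ⟨(k, false), fun h => by simp at h⟩)
    (fun k => ⟨(k.1, true), fun _ => k.2⟩)
  have hg : Function.Bijective g := by
    constructor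
    · rintro (x | x) (y | y) h
      · exact congrArg Sum.inl (congrArg (fun z : Car Sp => z.1.1) h)
      · have h1 : (false : Bool) = true := congrArg (fun z : Car Sp => z.1.2) h
        simp at h1
      · have h1 : (true : Bool) = false := congrArg (fun z : Car Sp => z.1.2) h
        simp at h1
      · exact congrArg Sum.inr (Subtype.ext (congrArg (fun z : Car Sp => z.1.1) h))
    · rintro ⟨⟨x, b⟩, hx⟩
      cases b
      · exact ⟨Sum.inl x, rfl⟩
      · exact ⟨Sum.inr ⟨x, hx rfl⟩, rfl⟩
  rw [← Nat.card_congr (Equiv.ofBijective g hg), Nat.card_sum, Nat.card_coe_set_eq]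

end Card

section Flags

variable (p : ℕ) [Fact p.Prime] (s : ℕ)

/-- The subspace lattice. -/
abbrev KK : Type := Submodule (ZMod p) (Sp3 (ZMod p))

/-- Points and lines. -/
def special0 : Set (KK p) := Set.range (fun ab : ZMod p × ZMod p => pt ab.1 ab.2) ∪
  Set.range (fun mk : ZMod p × ZMod p => ln mk.1 mk.2)

lemma ncard_special0 : (special0 p).ncard ≤ 2 * p ^ 2 := by
  refine (Set.ncard_union_le _ _).trans ?_
  have key : ∀ f : ZMod p × ZMod p → KK p, (Set.range f).ncard ≤ p ^ 2 := by
    intro f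
    rw [← Set.image_univ]
    refine (Set.ncard_image_le (Set.toFinite _)).trans ?_
    rw [Set.ncard_univ, Nat.card_prod, Nat.card_zmod]
    exact (by ring : p * p = p ^ 2).le
  have h1 := key fun ab => pt ab.1 ab.2
  have h2 := key fun mk => ln mk.1 mk.2
  omega

/-- The special elements of the padded lattice. -/
def special : Set (Pad (KK p) s) := padIn s '' special0 p

/-- The point and the line of a flag. -/
def fpt (t : ZMod p × ZMod p × ZMod p) : Pad (KK p) s := padIn s (pt t.1 (t.2.1 * t.1 + t.2.2))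

/-- The line of a flag. -/
def fln (t : ZMod p × ZMod p × ZMod p) : Pad (KK p) s := padIn s (ln t.2.1 t.2.2)

lemma fpt_mem (t : ZMod p × ZMod p × ZMod p) : fpt p s t ∈ special p s :=
  ⟨_, Or.inl ⟨(t.1, t.2.1 * t.1 + t.2.2), rfl⟩, rfl⟩

lemma fln_mem (t : ZMod p × ZMod p × ZMod p) : fln p s t ∈ special p s :=
  ⟨_, Or.inr ⟨(t.2.1, t.2.2), rfl⟩, rfl⟩

lemma fpt_covBy (t : ZMod p × ZMod p × ZMod p) : fpt p s t ⋖ fln p s t :=
  padIn_covBy s (pt_covBy_ln _ _ _)

lemma fpt_ne_fln (t t' : ZMod p × ZMod p × ZMod p) : fpt p s t ≠ fln p s t' := fun h =>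
  pt_ne_ln _ _ _ _ (padIn_inj s h)

lemma flag_inj {t t' : ZMod p × ZMod p × ZMod p} (h1 : fpt p s t = fpt p s t')
    (h2 : fln p s t = fln p s t') : t = t' := by
  obtain ⟨a, m, k⟩ := t
  obtain ⟨a', m', k'⟩ := t'
  have h3 := pt_inj (padIn_inj s h1)
  have h4 := ln_inj (padIn_inj s h2)
  have h5 : a = a' := h3.1
  have h6 : m = m' := h4.1
  have h7 : k = k' := h4.2
  rw [h5, h6, h7]

/-- The covering pairs of a set of flags. -/
def flagSet (T : Set (ZMod p × ZMod p × ZMod p)) : CovSet (Pad (KK p) s) (special p s) where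
  E x y := ∃ t ∈ T, x = fpt p s t ∧ y = fln p s t
  cov := by
    rintro x y ⟨t, _, rfl, rfl⟩
    exact fpt_covBy p s t
  left := by
    rintro x y ⟨t, _, rfl, rfl⟩
    exact fpt_mem p s t
  right := by
    rintro x y ⟨t, _, rfl, rfl⟩
    exact fln_mem p s t
  nocomp := by
    rintro x y z ⟨t, _, rfl, rfl⟩ ⟨t', _, h, _⟩
    exact fpt_ne_fln p s t' t h.symm

lemma mem_iff (T : Set (ZMod p × ZMod p × ZMod p)) (t : ZMod p × ZMod p × ZMod p) :
    t ∈ T ↔ (flagSet p s T).E (fpt p s t) (fln p s t) := by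
  constructor
  · intro h
    exact ⟨t, h, rfl, rfl⟩
  · rintro ⟨t', ht', h1, h2⟩
    rw [flag_inj p s h1 h2]
    exact ht'

/-- Different sets of flags give different orders. -/
lemma flagSet_le_inj : Function.Injective (fun T => (flagSet p s T).le) := by
  intro T T' h
  ext t
  rw [mem_iff p s T, mem_iff p s T', CovSet.E_iff _ (fpt_mem p s t) (fpt_covBy p s t),
    CovSet.E_iff _ (fpt_mem p s t) (fpt_covBy p s t)]
  have h' : (flagSet p s T).le = (flagSet p s T').le := h
  rw [h']

instance : Finite (Sp3 (ZMod p)) := inferInstance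

/-- **Many congruence lattices with the same number of elements.** -/
theorem many_of_prime (n : ℕ) (hn : 8 * p ^ 2 + 2 ≤ n) :
    ∃ (ι : Type) (_ : Fintype ι) (A : ι → FiniteAlgebra),
      (∀ i, Nat.card (A i).Con = n) ∧
      (∀ i j, Nonempty ((A i).Con ≃o (A j).Con) → i = j) ∧
      2 ^ (p ^ 3) ≤ Fintype.card ι * n.factorial := by
  have hK : Nat.card (KK p) ≤ 2 + 6 * p ^ 2 := card_subspaces p (Sp3 (ZMod p)) (by simp)
  have hS := ncard_special0 p
  obtain ⟨s, hs⟩ : ∃ s, Nat.card (KK p) + (special0 p).ncard + s = n :=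
    ⟨n - (Nat.card (KK p) + (special0 p).ncard), by omega⟩
  have hsp : (special p s).ncard = (special0 p).ncard :=
    Set.ncard_image_of_injective _ (padIn_inj s)
  have hcar : Nat.card (Car (special p s)) = n := by
    rw [card_car, card_pad, hsp]
    omega
  have hrep : ∀ T : Set (ZMod p × ZMod p × ZMod p), ∃ A : FiniteAlgebra,
      ∃ e : Car (special p s) ≃ A.Con, ∀ x y, (flagSet p s T).le x y ↔ e x ≤ e y := by
    intro T
    obtain ⟨A, ⟨e⟩⟩ := Ext.representable (flagSet p s T)
      (representable_pad (KK p) s (representable_subspaces p (Sp3 (ZMod p))))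
    refine ⟨A, e.toEquiv, fun x y => ?_⟩
    exact (e.le_iff_le (x := x) (y := y)).symm
  obtain ⟨ι, hι, A, h1, h2, h3⟩ := exists_family _ (flagSet_le_inj p s) hrep
  refine ⟨ι, hι, A, fun i => (h1 i).trans hcar, h2, ?_⟩
  rw [hcar] at h3
  refine le_trans (le_of_eq ?_) h3
  rw [Nat.card_eq_fintype_card, Fintype.card_set, Fintype.card_prod, Fintype.card_prod, ZMod.card]
  congr 1
  ring

end Flags

end Vale.Agent.P183.R2.H668
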